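import Vale.Agent.Lib.P252.OneD

/-!
# P252: the one-dimensional core

If `g = φ''` is positive, `h = g ^ (-a)` is concave, `1/2 < a < 1`, and the graph of `φ` over the
open interval `I` is closed in the plane, then `I` is the line and `φ` is a quadratic polynomial.
-/

open Set Filter Topology
open scoped ContDiff

namespace Vale.Agent.Lib.P252

/-- The mirror image of `not_closed_of_bddBelow`, at the upper end of the interval. -/
theorem not_closed_of_bddAbove {I : Set ℝ} (hIo : IsOpen I) (hIc : I.OrdConnected)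
    (hne : I.Nonempty) (hbdd : BddAbove I) {φ φ' g h : ℝ → ℝ}
    (hφ : ∀ t ∈ I, HasDerivAt φ (φ' t) t) (hφ' : ∀ t ∈ I, HasDerivAt φ' (g t) t)
    (hgpos : ∀ t ∈ I, 0 < g t) (hhc : ConcaveOn ℝ I h) (hhp : ∀ t ∈ I, 0 < h t)
    {b : ℝ} (hb1 : 1 < b) (hb2 : b < 2) (hgh : ∀ t ∈ I, g t = h t ^ (-b)) :
    ¬ IsClosed {p : ℝ × ℝ | p.1 ∈ I ∧ p.2 = φ p.1} := by
  intro hcl
  have hIo' : IsOpen (Neg.neg ⁻¹' I) := hIo.preimage continuous_neg
  have hIc' : (Neg.neg ⁻¹' I : Set ℝ).OrdConnected :=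
    ⟨fun x hx y hy z hz => hIc.out hy hx ⟨neg_le_neg hz.2, neg_le_neg hz.1⟩⟩
  have hne' : (Neg.neg ⁻¹' I : Set ℝ).Nonempty := by
    obtain ⟨t, ht⟩ := hne
    exact ⟨-t, by simpa using ht⟩
  have hbdd' : BddBelow (Neg.neg ⁻¹' I : Set ℝ) := by
    obtain ⟨B, hB⟩ := hbdd
    refine ⟨-B, fun t ht => ?_⟩
    have := hB ht
    linarith
  refine not_closed_of_bddBelow hIo' hIc' hne' hbdd' (φ := fun t => φ (-t))
    (φ' := fun t => - φ' (-t)) (g := fun t => g (-t)) (h := fun t => h (-t)) ?_ ?_ ?_ ?_ ?_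
    hb1 hb2 ?_ ?_
  · intro t ht
    have h1 := (hφ (-t) ht).scomp t (hasDerivAt_neg t)
    simpa [Function.comp_def] using h1
  · intro t ht
    have h1 := ((hφ' (-t) ht).scomp t (hasDerivAt_neg t)).fun_neg
    simpa [Function.comp_def] using h1
  · intro t ht
    exact hgpos (-t) ht
  · refine ⟨hIc'.convex, fun x hx y hy c d hc hd hcd => ?_⟩
    have h1 := hhc.2 hx hy hc hd hcd
    have e : -(c • x + d • y) = c • (-x) + d • (-y) := by
      simp only [smul_eq_mul]
      ring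
    simp only [e]
    exact h1
  · intro t ht
    exact hhp (-t) ht
  · intro t ht
    exact hgh (-t) ht
  · have hcont : Continuous (fun p : ℝ × ℝ => ((-p.1, p.2) : ℝ × ℝ)) := by fun_prop
    have := hcl.preimage hcont
    convert this using 1
    ext p
    simp

/-- The one-dimensional core. -/
theorem core1D {I : Set ℝ} (hIo : IsOpen I) (hIc : I.OrdConnected) (hne : I.Nonempty) {φ : ℝ → ℝ}
    (hsm : ContDiffOn ℝ ∞ φ I) (hg : ∀ t ∈ I, 0 < deriv (deriv φ) t) {a : ℝ} (ha : 1 / 2 < a)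
    (ha1 : a < 1)
    (hconc : ∀ t ∈ I, deriv (deriv (fun s => deriv (deriv φ) s ^ (-a))) t ≤ 0)
    (hcl : IsClosed {p : ℝ × ℝ | p.1 ∈ I ∧ p.2 = φ p.1}) :
    I = univ ∧ (∃ A b c : ℝ, 0 < A ∧ ∀ t, φ t = A * t ^ 2 / 2 + b * t + c) ∧
      ∀ s t, deriv (deriv φ) s ^ (-a) = deriv (deriv φ) t ^ (-a) := by
  have ha0 : 0 < a := by linarith
  set g := deriv (deriv φ) with hgdef
  set h : ℝ → ℝ := fun s => g s ^ (-a) with hh
  have hle : ∀ {m : WithTop ℕ∞}, m = ∞ → m + 1 ≤ (∞ : WithTop ℕ∞) := by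
    intro m hm
    subst hm
    exact le_of_eq rfl
  have hφ1 : ContDiffOn ℝ ∞ (deriv φ) I := hsm.deriv_of_isOpen hIo (hle rfl)
  have hφ2 : ContDiffOn ℝ ∞ g I := hφ1.deriv_of_isOpen hIo (hle rfl)
  have hh0 : ContDiffOn ℝ ∞ h I := hφ2.rpow_const_of_ne (fun t ht => (hg t ht).ne')
  have hh1 : ContDiffOn ℝ ∞ (deriv h) I := hh0.deriv_of_isOpen hIo (hle rfl)
  have hone : (1 : WithTop ℕ∞) ≠ 0 := by simp
  have hdiff : ∀ {f : ℝ → ℝ}, ContDiffOn ℝ ∞ f I → DifferentiableOn ℝ f I := fun hf =>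
    hf.differentiableOn (by simp)
  have hderiv : ∀ {f : ℝ → ℝ}, ContDiffOn ℝ ∞ f I → ∀ t ∈ I, HasDerivAt f (deriv f t) t :=
    fun hf t ht => ((hdiff hf).differentiableAt (hIo.mem_nhds ht)).hasDerivAt
  have hconcave : ConcaveOn ℝ I h := by
    refine concaveOn_of_deriv2_nonpos hIc.convex hh0.continuousOn ?_ ?_ ?_
    · rw [hIo.interior_eq]; exact hdiff hh0
    · rw [hIo.interior_eq]; exact hdiff hh1
    · intro t ht
      rw [hIo.interior_eq] at ht
      simpa [Function.iterate_succ] using hconc t ht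
  have hhp : ∀ t ∈ I, 0 < h t := fun t ht => Real.rpow_pos_of_pos (hg t ht) _
  set b := 1 / a with hb
  have hb1 : 1 < b := by
    rw [hb, lt_div_iff₀ ha0]
    linarith
  have hb2 : b < 2 := by
    rw [hb, div_lt_iff₀ ha0]
    linarith
  have hgh : ∀ t ∈ I, g t = h t ^ (-b) := by
    intro t ht
    simp only [hh]
    rw [← Real.rpow_mul (hg t ht).le]
    have : -a * -b = 1 := by
      rw [hb]
      field_simp
    rw [this, Real.rpow_one]
  have hnb := not_closed_of_bddBelow hIo hIc hne (φ := φ) (φ' := deriv φ) (g := g) (h := h)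
  have hna := not_closed_of_bddAbove hIo hIc hne (φ := φ) (φ' := deriv φ) (g := g) (h := h)
  have hB : ¬ BddBelow I := fun hbd =>
    hnb hbd (hderiv hsm) (hderiv hφ1) hg hconcave hhp hb1 hb2 hgh hcl
  have hA : ¬ BddAbove I := fun hbd =>
    hna hbd (hderiv hsm) (hderiv hφ1) hg hconcave hhp hb1 hb2 hgh hcl
  have hIuniv : I = univ := by
    refine eq_univ_of_forall fun t => ?_
    obtain ⟨s, hs, hst⟩ := not_bddBelow_iff.1 hB t
    obtain ⟨r, hr, htr⟩ := not_bddAbove_iff.1 hA t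
    exact hIc.out hs hr ⟨hst.le, htr.le⟩
  subst hIuniv
  have hconst : ∀ s t, h s = h t :=
    const_of_concave_pos hconcave (fun t => hhp t (mem_univ t))
  have hgconst : ∀ t, g t = g 0 := by
    intro t
    rw [hgh t (mem_univ t), hgh 0 (mem_univ 0), hconst t 0]
  refine ⟨rfl, ?_, hconst⟩
  -- integrate twice
  set A := g 0 with hA'
  have hA0 : 0 < A := hg 0 (mem_univ 0)
  have hd1 : ∀ t, HasDerivAt φ (deriv φ t) t := fun t => hderiv hsm t (mem_univ t)
  have hd2 : ∀ t, HasDerivAt (deriv φ) A t := fun t => by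
    have := hderiv hφ1 t (mem_univ t)
    rwa [show deriv (deriv φ) t = A from hgconst t] at this
  have hF : ∀ t, HasDerivAt (fun s => deriv φ s - A * s) 0 t := fun t => by
    have h1 := (hd2 t).fun_sub ((hasDerivAt_id' t).const_mul A)
    simpa using h1
  have hFc : ∀ t, deriv φ t - A * t = deriv φ 0 - A * 0 := by
    intro t
    exact is_const_of_deriv_eq_zero (f := fun s => deriv φ s - A * s)
      (fun s => (hF s).differentiableAt) (fun s => (hF s).deriv) t 0
  set B := deriv φ 0 with hB'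
  have hd1' : ∀ t, deriv φ t = A * t + B := fun t => by
    have := hFc t
    linarith
  have hG : ∀ t, HasDerivAt (fun s => φ s - A * s ^ 2 / 2 - B * s) 0 t := fun t => by
    have h1 : HasDerivAt (fun s : ℝ => s ^ 2) (2 * t) t := by
      simpa using hasDerivAt_pow 2 t
    have h2 := ((hd1 t).sub ((h1.const_mul A).div_const 2)).sub ((hasDerivAt_id t).const_mul B)
    have e : deriv φ t - A * (2 * t) / 2 - B * 1 = 0 := by
      rw [hd1' t]
      ring
    rw [e] at h2
    exact h2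
  have hGc : ∀ t, φ t - A * t ^ 2 / 2 - B * t = φ 0 - A * 0 ^ 2 / 2 - B * 0 := by
    intro t
    exact is_const_of_deriv_eq_zero (f := fun s => φ s - A * s ^ 2 / 2 - B * s)
      (fun s => (hG s).differentiableAt) (fun s => (hG s).deriv) t 0
  refine ⟨A, B, φ 0, hA0, fun t => ?_⟩
  have := hGc t
  simp only [ne_eq, OfNat.ofNat_ne_zero, not_false_eq_true, zero_pow, mul_zero, zero_div,
    sub_zero] at this
  linarith

end Vale.Agent.Lib.P252
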