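import Mathlib

/-!
# P252: one-dimensional lemmas for translation graphs

A positive concave function on the line is constant; and if `φ'' = h^(-b)` with `h` positive
concave on an interval bounded below, `1 < b < 2`, then `φ` stays bounded at the lower end, so its
graph is not closed.
-/

open Set Filter Topology

namespace Vale.Agent.Lib.P252

/-- Concavity in explicit interpolation form. -/
theorem concave_interp {I : Set ℝ} {h : ℝ → ℝ} (hc : ConcaveOn ℝ I h) {x y z : ℝ} (hx : x ∈ I)
    (hy : y ∈ I) (hxz : x ≤ z) (hzy : z ≤ y) (hxy : x < y) :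
    (y - z) / (y - x) * h x + (z - x) / (y - x) * h y ≤ h z := by
  have hd : 0 < y - x := sub_pos.2 hxy
  have hc1 : 0 ≤ (y - z) / (y - x) := div_nonneg (by linarith) hd.le
  have hc2 : 0 ≤ (z - x) / (y - x) := div_nonneg (by linarith) hd.le
  have hc3 : (y - z) / (y - x) + (z - x) / (y - x) = 1 := by
    field_simp
    ring
  have hconc := hc.2 hx hy hc1 hc2 hc3
  have e1 : ((y - z) / (y - x)) • x + ((z - x) / (y - x)) • y = z := by
    simp only [smul_eq_mul]
    field_simp
    ring
  rw [e1] at hconc
  simpa only [smul_eq_mul] using hconc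

/-- A positive concave function on the line is constant. -/
theorem const_of_concave_pos {h : ℝ → ℝ} (hc : ConcaveOn ℝ univ h) (hp : ∀ t, 0 < h t) :
    ∀ s t, h s = h t := by
  have key : ∀ s t, s < t → h s = h t := by
    intro s t hst
    have hs := hp s
    have ht := hp t
    rcases lt_trichotomy (h s) (h t) with hlt | heq | hgt
    · exfalso
      -- go left
      set δ := h t - h s with hδ
      have hδ0 : 0 < δ := by rw [hδ]; linarith
      set r := (s * h t - t * h s) / δ - 1 with hr
      have hr1 : r * δ = s * h t - t * h s - δ := by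
        rw [hr]; field_simp
      have hrs : r < s := by
        by_contra hcon
        push Not at hcon
        have : s * δ ≤ r * δ := mul_le_mul_of_nonneg_right hcon hδ0.le
        rw [hr1] at this
        rw [hδ] at this
        nlinarith
      have htr : 0 < t - r := by linarith
      have hconc := concave_interp hc (mem_univ r) (mem_univ t) hrs.le hst.le (by linarith)
      have hr0 := hp r
      have h2 : (s - r) / (t - r) * h t ≤ h s := by
        have : 0 ≤ (t - s) / (t - r) * h r :=
          mul_nonneg (by apply div_nonneg <;> linarith) hr0.le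
        linarith
      rw [div_mul_eq_mul_div, div_le_iff₀ htr] at h2
      -- (s - r) h t ≤ h s (t - r)
      have : (s - r) * h t - h s * (t - r) = s * h t - t * h s - r * δ := by
        rw [hδ]; ring
      rw [hr1] at this
      nlinarith
    · exact heq
    · exfalso
      -- go right
      set δ := h s - h t with hδ
      have hδ0 : 0 < δ := by rw [hδ]; linarith
      set r := (t * h s - s * h t) / δ + 1 with hr
      have hr1 : r * δ = t * h s - s * h t + δ := by
        rw [hr]; field_simp
      have hrt : t < r := by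
        by_contra hcon
        push Not at hcon
        have : r * δ ≤ t * δ := mul_le_mul_of_nonneg_right hcon hδ0.le
        rw [hr1] at this
        rw [hδ] at this
        nlinarith
      have hrs : 0 < r - s := by linarith
      have hconc := concave_interp hc (mem_univ s) (mem_univ r) hst.le hrt.le (by linarith)
      have hr0 := hp r
      have h2 : (r - t) / (r - s) * h s ≤ h t := by
        have : 0 ≤ (t - s) / (r - s) * h r :=
          mul_nonneg (by apply div_nonneg <;> linarith) hr0.le
        linarith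
      rw [div_mul_eq_mul_div, div_le_iff₀ hrs] at h2
      have : (r - t) * h s - h t * (r - s) = r * δ - t * h s + s * h t := by
        rw [hδ]; ring
      rw [hr1] at this
      nlinarith
  intro s t
  rcases lt_trichotomy s t with h1 | h1 | h1
  · exact key s t h1
  · rw [h1]
  · exact (key t s h1).symm

/-- At the lower end of an interval: `φ'' = g = h^(-b)`, `h` positive concave, `1 < b < 2`, forces
`φ` to stay bounded, so the graph of `φ` over the interval is not closed. -/
theorem not_closed_of_bddBelow {I : Set ℝ} (hIo : IsOpen I) (hIc : I.OrdConnected)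
    (hne : I.Nonempty) (hbdd : BddBelow I) {φ φ' g h : ℝ → ℝ}
    (hφ : ∀ t ∈ I, HasDerivAt φ (φ' t) t) (hφ' : ∀ t ∈ I, HasDerivAt φ' (g t) t)
    (hgpos : ∀ t ∈ I, 0 < g t) (hhc : ConcaveOn ℝ I h) (hhp : ∀ t ∈ I, 0 < h t)
    {b : ℝ} (hb1 : 1 < b) (hb2 : b < 2) (hgh : ∀ t ∈ I, g t = h t ^ (-b)) :
    ¬ IsClosed {p : ℝ × ℝ | p.1 ∈ I ∧ p.2 = φ p.1} := by
  intro hcl
  obtain ⟨t₁, ht₁⟩ := hne
  set α := sInf I with hα
  have hαle : ∀ t ∈ I, α ≤ t := fun t ht => csInf_le hbdd ht
  have hαnot : α ∉ I := by
    intro hmem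
    obtain ⟨ε, hε, hball⟩ := Metric.isOpen_iff.1 hIo α hmem
    have hin : α - ε / 2 ∈ I := hball (by
      rw [Metric.mem_ball, Real.dist_eq]
      have : α - ε / 2 - α = -(ε / 2) := by ring
      rw [this, abs_neg, abs_of_pos (by linarith)]
      linarith)
    have := hαle _ hin
    linarith
  have hαlt : α < t₁ := lt_of_le_of_ne (hαle t₁ ht₁) (fun e => hαnot (e ▸ ht₁))
  have hIoc : ∀ t, α < t → t ≤ t₁ → t ∈ I := by
    intro t h1 h2
    obtain ⟨s, hs, hst⟩ := exists_lt_of_csInf_lt ⟨t₁, ht₁⟩ h1
    exact hIc.out hs ht₁ ⟨hst.le, h2⟩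
  set d := t₁ - α with hd
  have hd0 : 0 < d := by rw [hd]; linarith
  set κ := h t₁ / (2 * d) with hκ
  have hκ0 : 0 < κ := div_pos (hhp t₁ ht₁) (by positivity)
  -- lower bound for h
  have hlow : ∀ t, α < t → t ≤ t₁ → κ * (t - α) ≤ h t := by
    intro t h1 h2
    rcases eq_or_lt_of_le h2 with rfl | h2'
    · rw [hκ, ← hd]
      have hh := hhp t ht₁
      have : h t / (2 * d) * d = h t / 2 := by field_simp
      rw [this]
      linarith
    set s := α + (t - α) / 2 with hs
    have hsα : α < s := by rw [hs]; linarith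
    have hst : s < t := by rw [hs]; linarith
    have hsI : s ∈ I := hIoc s hsα (by linarith)
    have ht₁s : 0 < t₁ - s := by linarith
    have hconc := concave_interp hhc hsI ht₁ hst.le h2 (by linarith)
    have h3 : (t - s) / (t₁ - s) * h t₁ ≤ h t := by
      have : 0 ≤ (t₁ - t) / (t₁ - s) * h s :=
        mul_nonneg (by apply div_nonneg <;> linarith) (hhp s hsI).le
      linarith
    refine le_trans ?_ h3
    have hst2 : t - s = (t - α) / 2 := by rw [hs]; ring
    rw [hst2, hκ]
    have hh := hhp t₁ ht₁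
    have hdle : t₁ - s ≤ d := by rw [hd]; linarith
    have htα : 0 < t - α := by linarith
    have : h t₁ / (2 * d) * (t - α) = (t - α) / 2 / d * h t₁ := by
      field_simp
    rw [this]
    apply mul_le_mul_of_nonneg_right _ hh.le
    exact div_le_div_of_nonneg_left (by positivity) ht₁s hdle
  -- the comparison function
  set K := κ ^ (-b) / ((2 - b) * (b - 1)) with hK
  have hb20 : 0 < 2 - b := by linarith
  have hb10 : 0 < b - 1 := by linarith
  have hK0 : 0 < K := div_pos (Real.rpow_pos_of_pos hκ0 _) (by positivity)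
  have hKe : K * ((2 - b) * (b - 1)) = κ ^ (-b) := by
    rw [hK]; field_simp
  set F : ℝ → ℝ := fun t => φ t + K * (t - α) ^ (2 - b) with hF
  set F' : ℝ → ℝ := fun t => φ' t + K * ((2 - b) * (t - α) ^ (1 - b)) with hF'
  have hξ : ∀ t, α < t → HasDerivAt (fun s => (s - α) ^ (2 - b)) ((2 - b) * (t - α) ^ (1 - b)) t := by
    intro t ht
    have h0 : t - α ≠ 0 := (sub_pos.2 ht).ne'
    have h1 := (Real.hasDerivAt_rpow_const (x := t - α) (p := 2 - b) (Or.inl h0))
    have h2 : HasDerivAt (fun s : ℝ => s - α) 1 t := (hasDerivAt_id t).sub_const α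
    have h3 := h1.comp t h2
    have e : (2 - b - 1) = 1 - b := by ring
    simpa [Function.comp_def, e] using h3
  have hξ' : ∀ t, α < t →
      HasDerivAt (fun s => (s - α) ^ (1 - b)) ((1 - b) * (t - α) ^ (-b)) t := by
    intro t ht
    have h0 : t - α ≠ 0 := (sub_pos.2 ht).ne'
    have h1 := (Real.hasDerivAt_rpow_const (x := t - α) (p := 1 - b) (Or.inl h0))
    have h2 : HasDerivAt (fun s : ℝ => s - α) 1 t := (hasDerivAt_id t).sub_const α
    have h3 := h1.comp t h2
    have e : (1 - b - 1) = -b := by ring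
    simpa [Function.comp_def, e] using h3
  have hFd : ∀ t, α < t → t ≤ t₁ → HasDerivAt F (F' t) t := by
    intro t h1 h2
    exact (hφ t (hIoc t h1 h2)).add ((hξ t h1).const_mul K)
  have hF'd : ∀ t, α < t → t ≤ t₁ →
      HasDerivAt F' (g t + K * ((2 - b) * ((1 - b) * (t - α) ^ (-b)))) t := by
    intro t h1 h2
    exact (hφ' t (hIoc t h1 h2)).add (((hξ' t h1).const_mul (2 - b)).const_mul K)
  have hF''neg : ∀ t, α < t → t ≤ t₁ →
      g t + K * ((2 - b) * ((1 - b) * (t - α) ^ (-b))) ≤ 0 := by
    intro t h1 h2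
    have htα : 0 < t - α := sub_pos.2 h1
    have h3 : g t ≤ (κ * (t - α)) ^ (-b) := by
      rw [hgh t (hIoc t h1 h2)]
      exact Real.rpow_le_rpow_of_nonpos (mul_pos hκ0 htα) (hlow t h1 h2) (by linarith)
    rw [Real.mul_rpow hκ0.le htα.le] at h3
    have h4 : K * ((2 - b) * ((1 - b) * (t - α) ^ (-b))) = - (κ ^ (-b) * (t - α) ^ (-b)) := by
      rw [← hKe]; ring
    rw [h4]
    linarith
  -- F' is antitone on (α, t₁]
  have hF'anti : ∀ t, α < t → t ≤ t₁ → F' t₁ ≤ F' t := by
    intro t h1 h2
    have hanti : AntitoneOn F' (Ioc α t₁) := by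
      apply antitoneOn_of_deriv_nonpos (convex_Ioc α t₁)
      · intro x hx
        exact (hF'd x hx.1 hx.2).continuousAt.continuousWithinAt
      · intro x hx
        rw [interior_Ioc] at hx
        exact (hF'd x hx.1 hx.2.le).differentiableAt.differentiableWithinAt
      · intro x hx
        rw [interior_Ioc] at hx
        rw [(hF'd x hx.1 hx.2.le).deriv]
        exact hF''neg x hx.1 hx.2.le
    exact hanti ⟨h1, h2⟩ ⟨hαlt, le_rfl⟩ h2
  -- upper bound for F
  have hFup : ∀ t, α < t → t ≤ t₁ → F t ≤ F t₁ + F' t₁ * (t - t₁) := by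
    intro t h1 h2
    have hmono : MonotoneOn (fun s => F s - F' t₁ * (s - t₁)) (Ioc α t₁) := by
      apply monotoneOn_of_deriv_nonneg (convex_Ioc α t₁)
      · intro x hx
        have := (hFd x hx.1 hx.2).continuousAt
        exact (this.sub (by fun_prop)).continuousWithinAt
      · intro x hx
        rw [interior_Ioc] at hx
        have h3 := hFd x hx.1 hx.2.le
        have h4 : HasDerivAt (fun s => F s - F' t₁ * (s - t₁)) (F' x - F' t₁ * 1) x :=
          h3.sub (((hasDerivAt_id x).sub_const t₁).const_mul (F' t₁))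
        exact h4.differentiableAt.differentiableWithinAt
      · intro x hx
        rw [interior_Ioc] at hx
        have h3 := hFd x hx.1 hx.2.le
        have h4 : HasDerivAt (fun s => F s - F' t₁ * (s - t₁)) (F' x - F' t₁ * 1) x :=
          h3.sub (((hasDerivAt_id x).sub_const t₁).const_mul (F' t₁))
        rw [h4.deriv]
        have := hF'anti x hx.1 hx.2.le
        linarith
    have := hmono ⟨h1, h2⟩ ⟨hαlt, le_rfl⟩ h2
    simp only [sub_self, mul_zero] at this
    linarith
  -- φ' is monotone, lower bound for φ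
  have hφlow : ∀ t, α < t → t ≤ t₁ → φ t₁ + φ' t₁ * (t - t₁) ≤ φ t := by
    intro t h1 h2
    have hmonoφ' : MonotoneOn φ' (Ioc α t₁) := by
      apply monotoneOn_of_deriv_nonneg (convex_Ioc α t₁)
      · intro x hx
        exact (hφ' x (hIoc x hx.1 hx.2)).continuousAt.continuousWithinAt
      · intro x hx
        rw [interior_Ioc] at hx
        exact (hφ' x (hIoc x hx.1 hx.2.le)).differentiableAt.differentiableWithinAt
      · intro x hx
        rw [interior_Ioc] at hx
        rw [(hφ' x (hIoc x hx.1 hx.2.le)).deriv]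
        exact (hgpos x (hIoc x hx.1 hx.2.le)).le
    have hanti : AntitoneOn (fun s => φ s - φ' t₁ * (s - t₁)) (Ioc α t₁) := by
      apply antitoneOn_of_deriv_nonpos (convex_Ioc α t₁)
      · intro x hx
        have := (hφ x (hIoc x hx.1 hx.2)).continuousAt
        exact (this.sub (by fun_prop)).continuousWithinAt
      · intro x hx
        rw [interior_Ioc] at hx
        have h3 := hφ x (hIoc x hx.1 hx.2.le)
        have h4 : HasDerivAt (fun s => φ s - φ' t₁ * (s - t₁)) (φ' x - φ' t₁ * 1) x :=
          h3.sub (((hasDerivAt_id x).sub_const t₁).const_mul (φ' t₁))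
        exact h4.differentiableAt.differentiableWithinAt
      · intro x hx
        rw [interior_Ioc] at hx
        have h3 := hφ x (hIoc x hx.1 hx.2.le)
        have h4 : HasDerivAt (fun s => φ s - φ' t₁ * (s - t₁)) (φ' x - φ' t₁ * 1) x :=
          h3.sub (((hasDerivAt_id x).sub_const t₁).const_mul (φ' t₁))
        rw [h4.deriv]
        have := hmonoφ' ⟨hx.1, hx.2.le⟩ ⟨hαlt, le_rfl⟩ hx.2.le
        linarith
    have := hanti ⟨h1, h2⟩ ⟨hαlt, le_rfl⟩ h2
    simp only [sub_self, mul_zero] at this
    linarith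
  -- bounds
  set L₀ := φ t₁ - |φ' t₁| * d with hL₀
  set U₀ := F t₁ + |F' t₁| * d with hU₀
  have hbound : ∀ t, α < t → t ≤ t₁ → φ t ∈ Icc L₀ U₀ := by
    intro t h1 h2
    have hts : |t - t₁| ≤ d := by
      rw [abs_le, hd]
      constructor <;> linarith
    have h3 := hφlow t h1 h2
    have h4 := hFup t h1 h2
    have h5 : φ t ≤ F t := by
      have : 0 ≤ K * (t - α) ^ (2 - b) :=
        mul_nonneg hK0.le (Real.rpow_nonneg (sub_pos.2 h1).le _)
      simp only [hF]
      linarith
    have h6 : - (|φ' t₁| * d) ≤ φ' t₁ * (t - t₁) := by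
      have := abs_mul (φ' t₁) (t - t₁)
      have h7 : |φ' t₁ * (t - t₁)| ≤ |φ' t₁| * d := by
        rw [this]; exact mul_le_mul_of_nonneg_left hts (abs_nonneg _)
      exact (abs_le.1 h7).1
    have h8 : F' t₁ * (t - t₁) ≤ |F' t₁| * d := by
      have := abs_mul (F' t₁) (t - t₁)
      have h7 : |F' t₁ * (t - t₁)| ≤ |F' t₁| * d := by
        rw [this]; exact mul_le_mul_of_nonneg_left hts (abs_nonneg _)
      exact (abs_le.1 h7).2
    exact ⟨by rw [hL₀]; linarith, by rw [hU₀]; linarith⟩
  -- the sequence
  set τ : ℕ → ℝ := fun k => α + d / (k + 1) with hτ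
  have hτpos : ∀ k, α < τ k := by
    intro k
    simp only [hτ]
    have : 0 < d / ((k : ℝ) + 1) := by positivity
    linarith
  have hτle : ∀ k, τ k ≤ t₁ := by
    intro k
    simp only [hτ]
    have h1 : d / ((k : ℝ) + 1) ≤ d := by
      apply div_le_self hd0.le
      have : (0 : ℝ) ≤ k := Nat.cast_nonneg k
      linarith
    rw [hd] at h1 ⊢
    linarith
  have hτlim : Tendsto τ atTop (𝓝 α) := by
    have h1 : Tendsto (fun k : ℕ => d / ((k : ℝ) + 1)) atTop (𝓝 0) :=
      tendsto_const_div_atTop_nhds_zero_nat d |>.comp (tendsto_add_atTop_nat 1) |>.congr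
        (fun k => by simp)
    have h2 := h1.const_add α
    simpa [hτ] using h2
  obtain ⟨L, _, σ, hσ, hlim⟩ := (isCompact_Icc (a := L₀) (b := U₀)).tendsto_subseq
    (x := fun k => φ (τ k)) (fun k => hbound _ (hτpos k) (hτle k))
  have hpair : Tendsto (fun k => (τ (σ k), φ (τ (σ k)))) atTop (𝓝 (α, L)) :=
    (hτlim.comp hσ.tendsto_atTop).prodMk_nhds hlim
  have hmem : (α, L) ∈ {p : ℝ × ℝ | p.1 ∈ I ∧ p.2 = φ p.1} := by
    apply hcl.mem_of_tendsto hpair
    exact Eventually.of_forall fun k => ⟨hIoc _ (hτpos _) (hτle _), rfl⟩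
  exact hαnot hmem.1

end Vale.Agent.Lib.P252
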