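import Vale.Agent.Lib.P252.Core1D

/-!
# P252: additively separable solutions of the affine maximal equation

`pd`, `hess`, `affW`, `AffineMaximalAt` spell out the equation (AM) of the problem in
coordinates. The main theorem treats `u(x) = φ₁(x₁) + … + φₙ(xₙ)` on a product of open intervals.
-/

open Set Filter Topology
open scoped ContDiff

namespace Vale.Agent.Lib.P252

variable {n : ℕ}

/-- The pd derivative `∂ᵢ f (x)`: the derivative at `x i` of `f` along the line through `x`
in coordinate direction `i`. -/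
noncomputable def pd (i : Fin n) (f : (Fin n → ℝ) → ℝ) (x : Fin n → ℝ) : ℝ :=
  deriv (fun t => f (Function.update x i t)) (x i)

/-- The Hessian matrix `D²u (x)`. -/
noncomputable def hess (u : (Fin n → ℝ) → ℝ) (x : Fin n → ℝ) : Matrix (Fin n) (Fin n) ℝ :=
  Matrix.of fun i j => pd i (pd j u) x

/-- The function `w = (det D²u) ^ (-(n+1)/(n+2))`. -/
noncomputable def affW (u : (Fin n → ℝ) → ℝ) (x : Fin n → ℝ) : ℝ :=
  (hess u x).det ^ (-(((n : ℝ) + 1) / ((n : ℝ) + 2)))

/-- The affine maximal equation (AM) at the point `x`: `∑ U^{ij} ∂ᵢ∂ⱼ w = 0`, with `U` the cofactor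
matrix (the adjugate `det(D²u) (D²u)⁻¹`) of the Hessian. -/
def AffineMaximalAt (u : (Fin n → ℝ) → ℝ) (x : Fin n → ℝ) : Prop :=
  ∑ i, ∑ j, (hess u x).adjugate i j * pd i (pd j (affW u)) x = 0

/-! ### Sums and products under `Function.update` -/

theorem sum_update (φ : Fin n → ℝ → ℝ) (y : Fin n → ℝ) (i : Fin n) (t : ℝ) :
    ∑ k, φ k (Function.update y i t k) = φ i t + ∑ k ∈ Finset.univ.erase i, φ k (y k) := by
  rw [← Finset.add_sum_erase _ _ (Finset.mem_univ i), Function.update_self]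
  congr 1
  refine Finset.sum_congr rfl fun k hk => ?_
  rw [Function.update_of_ne (Finset.ne_of_mem_erase hk)]

theorem prod_update (φ : Fin n → ℝ → ℝ) (y : Fin n → ℝ) (i : Fin n) (t : ℝ) :
    ∏ k, φ k (Function.update y i t k) = φ i t * ∏ k ∈ Finset.univ.erase i, φ k (y k) := by
  rw [← Finset.mul_prod_erase _ _ (Finset.mem_univ i), Function.update_self]
  congr 1
  refine Finset.prod_congr rfl fun k hk => ?_
  rw [Function.update_of_ne (Finset.ne_of_mem_erase hk)]

theorem prod_erase_update (φ : Fin n → ℝ → ℝ) (y : Fin n → ℝ) (i : Fin n) (t : ℝ) :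
    ∏ k ∈ Finset.univ.erase i, φ k (Function.update y i t k) =
      ∏ k ∈ Finset.univ.erase i, φ k (y k) := by
  refine Finset.prod_congr rfl fun k hk => ?_
  rw [Function.update_of_ne (Finset.ne_of_mem_erase hk)]

/-! ### The Hessian of a separable function -/

theorem pd_sum (φ : Fin n → ℝ → ℝ) (j : Fin n) (y : Fin n → ℝ) :
    pd j (fun z => ∑ k, φ k (z k)) y = deriv (φ j) (y j) := by
  unfold pd
  have : (fun t => ∑ k, φ k (Function.update y j t k)) =
      fun t => φ j t + ∑ k ∈ Finset.univ.erase j, φ k (y k) := by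
    funext t
    exact sum_update φ y j t
  rw [this, deriv_add_const]

theorem pd_pd_sum (φ : Fin n → ℝ → ℝ) (i j : Fin n) (x : Fin n → ℝ) :
    pd i (pd j (fun z => ∑ k, φ k (z k))) x =
      if i = j then deriv (deriv (φ i)) (x i) else 0 := by
  have h : pd j (fun z => ∑ k, φ k (z k)) = fun y => deriv (φ j) (y j) := by
    funext y
    exact pd_sum φ j y
  rw [h]
  unfold pd
  by_cases hij : i = j
  · subst hij
    simp
  · have : (fun t => deriv (φ j) (Function.update x i t j)) = fun _ => deriv (φ j) (x j) := by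
      funext t
      rw [Function.update_of_ne (Ne.symm hij)]
    simp [this, hij]

theorem hess_sum (φ : Fin n → ℝ → ℝ) (x : Fin n → ℝ) :
    hess (fun z => ∑ k, φ k (z k)) x = Matrix.diagonal fun i => deriv (deriv (φ i)) (x i) := by
  ext i j
  simp only [hess, Matrix.of_apply, Matrix.diagonal_apply]
  exact pd_pd_sum φ i j x

/-! ### The function `w` of a separable function -/

/-- The exponent `a = (n+1)/(n+2)`. -/
noncomputable def expA (n : ℕ) : ℝ := ((n : ℝ) + 1) / ((n : ℝ) + 2)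

section Main

variable {I : Fin n → Set ℝ} {φ : Fin n → ℝ → ℝ}

/-- The coordinate factors of `w`. -/
noncomputable def fac (φ : Fin n → ℝ → ℝ) (i : Fin n) (t : ℝ) : ℝ :=
  deriv (deriv (φ i)) t ^ (-expA n)

theorem affW_sum (hg : ∀ i, ∀ t ∈ I i, 0 < deriv (deriv (φ i)) t) {y : Fin n → ℝ}
    (hy : ∀ k, y k ∈ I k) :
    affW (fun z => ∑ k, φ k (z k)) y = ∏ k, fac φ k (y k) := by
  unfold affW fac
  rw [hess_sum, Matrix.det_diagonal]
  rw [Real.finsetProd_rpow _ _ (fun k _ => (hg k _ (hy k)).le)]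
  rfl

theorem affW_update (hg : ∀ i, ∀ t ∈ I i, 0 < deriv (deriv (φ i)) t) {y : Fin n → ℝ}
    (hy : ∀ k, y k ∈ I k) {i : Fin n} {t : ℝ} (ht : t ∈ I i) :
    affW (fun z => ∑ k, φ k (z k)) (Function.update y i t) =
      fac φ i t * ∏ k ∈ Finset.univ.erase i, fac φ k (y k) := by
  have hy' : ∀ k, Function.update y i t k ∈ I k := by
    intro k
    by_cases hk : k = i
    · subst hk
      simpa using ht
    · rw [Function.update_of_ne hk]
      exact hy k
  rw [affW_sum hg hy', prod_update]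

theorem pd_affW (hIo : ∀ i, IsOpen (I i)) (hg : ∀ i, ∀ t ∈ I i, 0 < deriv (deriv (φ i)) t)
    {y : Fin n → ℝ} (hy : ∀ k, y k ∈ I k) (i : Fin n) :
    pd i (affW (fun z => ∑ k, φ k (z k))) y =
      deriv (fac φ i) (y i) * ∏ k ∈ Finset.univ.erase i, fac φ k (y k) := by
  unfold pd
  have hev : (fun t => affW (fun z => ∑ k, φ k (z k)) (Function.update y i t)) =ᶠ[𝓝 (y i)]
      fun t => fac φ i t * ∏ k ∈ Finset.univ.erase i, fac φ k (y k) := by
    filter_upwards [(hIo i).mem_nhds (hy i)] with t ht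
    exact affW_update hg hy ht
  rw [hev.deriv_eq, deriv_mul_const_field]

theorem pd_pd_affW (hIo : ∀ i, IsOpen (I i))
    (hg : ∀ i, ∀ t ∈ I i, 0 < deriv (deriv (φ i)) t) {x : Fin n → ℝ} (hx : ∀ k, x k ∈ I k)
    (i : Fin n) :
    pd i (pd i (affW (fun z => ∑ k, φ k (z k)))) x =
      deriv (deriv (fac φ i)) (x i) * ∏ k ∈ Finset.univ.erase i, fac φ k (x k) := by
  conv_lhs => unfold pd
  have hev : (fun t => deriv (fun s => affW (fun z => ∑ k, φ k (z k))
        (Function.update (Function.update x i t) i s)) (Function.update x i t i)) =ᶠ[𝓝 (x i)]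
      fun t => deriv (fac φ i) t * ∏ k ∈ Finset.univ.erase i, fac φ k (x k) := by
    filter_upwards [(hIo i).mem_nhds (hx i)] with t ht
    have hy' : ∀ k, Function.update x i t k ∈ I k := by
      intro k
      by_cases hk : k = i
      · subst hk
        simpa using ht
      · rw [Function.update_of_ne hk]
        exact hx k
    have := pd_affW hIo hg hy' i
    unfold pd at this
    rw [this, Function.update_self, prod_erase_update]
  refine Eq.trans hev.deriv_eq ?_
  rw [deriv_mul_const_field]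

theorem aux_field (A H C D : ℝ) (hD : D ≠ 0) : A * (H * C) = D * (A * C) * (H / D) := by
  field_simp

/-- The ratio `ζᵢ = hᵢ'' / (gᵢ hᵢ)`. -/
noncomputable def zeta (φ : Fin n → ℝ → ℝ) (i : Fin n) (t : ℝ) : ℝ :=
  deriv (deriv (fac φ i)) t / (deriv (deriv (φ i)) t * fac φ i t)

/-- (AM) for a separable function separates into `∑ ζᵢ (xᵢ) = 0`. -/
theorem sum_zeta_eq_zero (hIo : ∀ i, IsOpen (I i))
    (hg : ∀ i, ∀ t ∈ I i, 0 < deriv (deriv (φ i)) t) {x : Fin n → ℝ} (hx : ∀ k, x k ∈ I k)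
    (hAM : AffineMaximalAt (fun z => ∑ k, φ k (z k)) x) :
    ∑ i, zeta φ i (x i) = 0 := by
  unfold AffineMaximalAt at hAM
  rw [hess_sum, Matrix.adjugate_diagonal] at hAM
  have hpos : ∀ i, 0 < deriv (deriv (φ i)) (x i) * fac φ i (x i) := fun i =>
    mul_pos (hg i _ (hx i)) (Real.rpow_pos_of_pos (hg i _ (hx i)) _)
  set P := ∏ k, (deriv (deriv (φ k)) (x k) * fac φ k (x k)) with hP
  have hP0 : 0 < P := Finset.prod_pos fun k _ => hpos k
  have hinner : ∀ i, ∑ j, (Matrix.diagonal fun i =>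
        ∏ j ∈ Finset.univ.erase i, deriv (deriv (φ j)) (x j)) i j *
        pd i (pd j (affW fun z => ∑ k, φ k (z k))) x = P * zeta φ i (x i) := by
    intro i
    rw [Finset.sum_eq_single i]
    · rw [Matrix.diagonal_apply_eq, pd_pd_affW hIo hg hx i]
      unfold zeta
      have e : P = (deriv (deriv (φ i)) (x i) * fac φ i (x i)) *
          ((∏ k ∈ Finset.univ.erase i, deriv (deriv (φ k)) (x k)) *
            ∏ k ∈ Finset.univ.erase i, fac φ k (x k)) := by
        rw [hP, ← Finset.mul_prod_erase _ _ (Finset.mem_univ i), Finset.prod_mul_distrib]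
      rw [e]
      exact aux_field _ _ _ _ (hpos i).ne'
    · intro j _ hj
      rw [Matrix.diagonal_apply_ne _ (Ne.symm hj), zero_mul]
    · intro h
      exact absurd (Finset.mem_univ i) h
  simp only [hinner] at hAM
  rw [← Finset.mul_sum] at hAM
  exact (mul_eq_zero.1 hAM).resolve_left hP0.ne'

/-- Separation of variables: each `ζᵢ` is constant on `I i`. -/
theorem zeta_const (hIo : ∀ i, IsOpen (I i))
    (hg : ∀ i, ∀ t ∈ I i, 0 < deriv (deriv (φ i)) t)
    (hAM : ∀ x, (∀ i, x i ∈ I i) → AffineMaximalAt (fun z => ∑ k, φ k (z k)) x)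
    {x : Fin n → ℝ} (hx : ∀ k, x k ∈ I k) (i : Fin n) {t : ℝ} (ht : t ∈ I i) :
    zeta φ i t = zeta φ i (x i) := by
  have hy' : ∀ k, Function.update x i t k ∈ I k := by
    intro k
    by_cases hk : k = i
    · subst hk
      simpa using ht
    · rw [Function.update_of_ne hk]
      exact hx k
  have h1 := sum_zeta_eq_zero hIo hg hy' (hAM _ hy')
  have h2 := sum_zeta_eq_zero hIo hg hx (hAM _ hx)
  rw [sum_update] at h1
  rw [← Finset.add_sum_erase _ _ (Finset.mem_univ i)] at h2
  linarith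

theorem expA_gt {n : ℕ} (hn : 0 < n) : 1 / 2 < expA n := by
  unfold expA
  have h : (0 : ℝ) < n := by exact_mod_cast hn
  rw [div_lt_div_iff₀ (by norm_num) (by linarith)]
  linarith

theorem expA_lt (n : ℕ) : expA n < 1 := by
  unfold expA
  have h : (0 : ℝ) ≤ n := Nat.cast_nonneg n
  rw [div_lt_one (by linarith)]
  linarith

/-- The closed graph over `Ω` restricts to a closed graph of each `φ i`. -/
theorem closed_slice {x : Fin n → ℝ} (hx : ∀ k, x k ∈ I k) (i : Fin n)
    (hcl : IsClosed {p : (Fin n → ℝ) × ℝ | (∀ k, p.1 k ∈ I k) ∧ p.2 = ∑ k, φ k (p.1 k)}) :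
    IsClosed {p : ℝ × ℝ | p.1 ∈ I i ∧ p.2 = φ i p.1} := by
  set C := ∑ k ∈ Finset.univ.erase i, φ k (x k) with hC
  have hcont : Continuous (fun p : ℝ × ℝ => ((Function.update x i p.1, p.2 + C) : (Fin n → ℝ) × ℝ)) := by
    refine Continuous.prodMk ?_ (by fun_prop)
    exact (continuous_const.update i continuous_fst)
  have := hcl.preimage hcont
  convert this using 1
  ext p
  simp only [mem_ofPred_eq, mem_preimage]
  rw [sum_update]
  constructor
  · rintro ⟨h1, h2⟩
    refine ⟨fun k => ?_, ?_⟩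
    · by_cases hk : k = i
      · subst hk
        simpa using h1
      · rw [Function.update_of_ne hk]
        exact hx k
    · rw [h2]
  · rintro ⟨h1, h2⟩
    refine ⟨by simpa using h1 i, ?_⟩
    linarith

/-- **Main theorem.** A solution `u = φ₁(x₁) + … + φₙ(xₙ)` of (AM) on a product of open intervals,
smooth with positive Hessian, with closed graph in `ℝⁿ × ℝ`, is entire and a quadratic polynomial
with positive definite diagonal Hessian. -/
theorem separable_rigidity (hIo : ∀ i, IsOpen (I i)) (hIc : ∀ i, (I i).OrdConnected)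
    (hIne : ∀ i, (I i).Nonempty) (hsm : ∀ i, ContDiffOn ℝ ∞ (φ i) (I i))
    (hg : ∀ i, ∀ t ∈ I i, 0 < deriv (deriv (φ i)) t)
    (hAM : ∀ x, (∀ i, x i ∈ I i) → AffineMaximalAt (fun z => ∑ k, φ k (z k)) x)
    (hcl : IsClosed {p : (Fin n → ℝ) × ℝ | (∀ k, p.1 k ∈ I k) ∧ p.2 = ∑ k, φ k (p.1 k)}) :
    ∀ i, I i = univ ∧ ∃ A b c : ℝ, 0 < A ∧ ∀ t, φ i t = A * t ^ 2 / 2 + b * t + c := by
  choose x hx using hIne
  have hnpos : ∀ _ : Fin n, 0 < n := fun i => i.pos
  have key : ∀ i, zeta φ i (x i) ≤ 0 →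
      (I i = univ ∧ (∃ A b c : ℝ, 0 < A ∧ ∀ t, φ i t = A * t ^ 2 / 2 + b * t + c) ∧
        zeta φ i (x i) = 0) := by
    intro i hc
    have hh : ∀ t ∈ I i, deriv (deriv (fun s => deriv (deriv (φ i)) s ^ (-expA n))) t ≤ 0 := by
      intro t ht
      have h1 := zeta_const hIo hg hAM hx i ht
      have h2 : 0 < deriv (deriv (φ i)) t * fac φ i t :=
        mul_pos (hg i t ht) (Real.rpow_pos_of_pos (hg i t ht) _)
      have h3 : deriv (deriv (fac φ i)) t = zeta φ i (x i) * (deriv (deriv (φ i)) t * fac φ i t) := by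
        rw [← h1]
        unfold zeta
        rw [div_mul_cancel₀ _ h2.ne']
      have h4 : deriv (deriv (fac φ i)) t ≤ 0 := by
        rw [h3]
        exact mul_nonpos_of_nonpos_of_nonneg hc h2.le
      exact h4
    obtain ⟨h1, h2, h3⟩ := core1D (hIo i) (hIc i) ⟨x i, hx i⟩ (hsm i) (hg i)
      (expA_gt (hnpos i)) (expA_lt n) hh (closed_slice hx i hcl)
    refine ⟨h1, h2, ?_⟩
    have h4 : fac φ i = fun _ => fac φ i 0 := by
      funext t
      exact h3 t 0
    unfold zeta
    rw [h4]
    simp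
  have hnonneg : ∀ i, 0 ≤ zeta φ i (x i) := by
    intro i
    by_contra hcon
    push Not at hcon
    have := (key i hcon.le).2.2
    linarith
  have hsum := sum_zeta_eq_zero hIo hg hx (hAM x hx)
  have hzero : ∀ i, zeta φ i (x i) = 0 := by
    intro i
    exact (Finset.sum_eq_zero_iff_of_nonneg (fun k _ => hnonneg k)).1 hsum i (Finset.mem_univ i)
  intro i
  obtain ⟨h1, h2, _⟩ := key i (hzero i).le
  exact ⟨h1, h2⟩

end Main

end Vale.Agent.Lib.P252
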